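import Crest.Agent.R192.HG.Rep

/-! R192, block HG: derivatives along the coordinate lines. -/

set_option autoImplicit false

open Complex Finset

noncomputable section

namespace Crest.Agent.R192.HG

variable {G : Type} [Group G] {L : Len G} {P : Par} {g : G} {n : ℕ} {x : Fin (n + 1) → G}
  {v : Fin (n + 1) → ℝ} {σ : ℝ}

/-- the coordinate line -/
def ln {N : ℕ} (v : Fin N → ℝ) (l : Fin N) (t : ℝ) : Fin N → ℝ := v + t • (Pi.single l 1 : Fin N → ℝ)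

@[simp] theorem ln_zero {N : ℕ} (v : Fin N → ℝ) (l : Fin N) : ln v l 0 = v := by simp [ln]

theorem hasDerivAt_ln {N : ℕ} {v : Fin N → ℝ} (l : Fin N) {φ : (Fin N → ℝ) → ℂ} (h : DifferentiableAt ℝ φ v) :
    HasDerivAt (fun t => φ (ln v l t)) (pd l φ v) 0 := by
  have h1 : HasDerivAt (ln v l) (Pi.single l 1) 0 :=
    (((hasDerivAt_id' (0 : ℝ)).smul_const (Pi.single l 1 : Fin N → ℝ)).const_add v).congr_deriv (one_smul _ _)
  have h2 : HasFDerivAt φ (fderiv ℝ φ v) (ln v l 0) := by rw [ln_zero]; exact h.hasFDerivAt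
  exact h2.comp_hasDerivAt 0 h1

theorem hasDerivAt_ln_re {N : ℕ} {v : Fin N → ℝ} (l : Fin N) {φ : (Fin N → ℝ) → ℂ} (h : DifferentiableAt ℝ φ v) :
    HasDerivAt (fun t => (φ (ln v l t)).re) (pd l φ v).re 0 :=
  reCLM.hasFDerivAt.comp_hasDerivAt 0 (hasDerivAt_ln l h)

theorem norm_pd_bs (hσ : σ ∈ Set.Icc (0 : ℝ) 1) (hv : Ord v) {κ : ℝ → ℝ} {w : ℝ} (hκ : Cdf κ w) (F : G → ℂ)
    (l : Fin (n + 1)) {C : ℝ} (hC : ∀ m : ℕ, ‖F (g ^ m * pv g x l) - F (g ^ m * x l)‖ ≤ C) :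
    ‖pd l (fun w => bs g x σ w κ F) v‖ ≤ C * dk κ (v l - σ) := by
  simpa using norm_pd_bs_le g x hσ hv hκ (F := fun _ => F) (fun _ => differentiableAt_const _) l (C' := 0) hC
    fun y => by simp [pd]

theorem der_AA (R : ℕ) (hσ : σ ∈ Set.Icc (0 : ℝ) 1) (hv : Ord v) {κ κ' : ℝ → ℝ} {w w' : ℝ} (hκ : Cdf κ w)
    (hκ' : Cdf κ' w') (l : Fin (n + 1)) : ∃ d, HasDerivAt (fun t => AA L R κ κ' (bs g x σ (ln v l t))) d 0 ∧
      |d| ≤ lam L R g x l * (dk κ (v l - σ) + dk κ' (v l - σ)) := by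
  have hF : ∀ y, DifferentiableAt ℝ (fun w => bs g x σ w κ' fun y' => (dT L R y y' : ℂ)) v := fun y =>
    differentiableAt_bs g x σ v hκ'.adm (F := fun _ y' => (dT L R y y' : ℂ)) fun _ => differentiableAt_const _
  refine ⟨_, hasDerivAt_ln_re l (differentiableAt_bs g x σ v hκ.adm hF), (abs_re_le_norm _).trans ?_⟩
  rw [mul_add]
  refine norm_pd_bs_le g x hσ hv hκ hF l (fun m => ?_) fun y => norm_pd_bs hσ hv hκ' _ l fun m => ?_
  · rw [bs_sub σ v hκ'.adm]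
    refine norm_bs_le' hσ hv hκ' fun y => ?_
    rw [← ofReal_sub, norm_real, dT_comm L R _ y, dT_comm L R _ y]
    exact (abs_dT_sub_le L R _ _ _).trans (dT_pv_le_lam L R x l m)
  · rw [← ofReal_sub, norm_real]
    exact (abs_dT_sub_le L R _ _ _).trans (dT_pv_le_lam L R x l m)

theorem der_rr (h : Valid L P) (hσ : σ ∈ Set.Icc (0 : ℝ) 1) (hv : Ord v) (l : Fin (n + 1)) :
    ∃ d, HasDerivAt (fun t => rr L P (bs g x σ (ln v l t))) d 0 ∧ |d| ≤ lam L P.R' g x l * P.kb (v l - σ) := by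
  have hq : (0 : ℝ) < P.q := by exact_mod_cast h.q_pos
  choose! d h1 h2 using fun (b : ℕ) (hb : b ∈ range P.q) => der_AA (L := L) (g := g) (x := x) P.R' hσ hv
    (h.cdf_k1 (mem_range.1 hb).le) (h.cdf_k1 (mem_range.1 hb)) l
  refine ⟨_, (HasDerivAt.fun_sum h1).div_const _, ?_⟩
  rw [abs_div, abs_of_pos hq, Par.kb, h.dk_kk, h.dk_kp, ← add_div, ← mul_div_assoc, ← sum_add_distrib, mul_sum]
  exact div_le_div_of_nonneg_right ((abs_sum_le_sum_abs _ _).trans (sum_le_sum h2)) hq.le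

theorem der_ro (h : Valid L P) (hσ : σ ∈ Set.Icc (0 : ℝ) 1) (hv : Ord v) (l : Fin (n + 1)) :
    ∃ d, HasDerivAt (fun t => ro L P (bs g x σ (ln v l t))) d 0 ∧
      |d| ≤ 2 * (lam L P.R' g x l * P.kb (v l - σ)) := by
  obtain ⟨d, h1, h2⟩ := der_AA (L := L) (g := g) (x := x) P.R' hσ hv h.cdf_kk h.cdf_kk l
  refine ⟨d, h1, h2.trans ?_⟩
  have := mul_le_mul_of_nonneg_left (h.dk_kk_le (v l - σ)) (zero_le_one.trans (one_le_lam L P.R' x l (g := g)))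
  linarith

theorem der_EJ (h : Valid L P) (hσ : σ ∈ Set.Icc (0 : ℝ) 1) (hv : Ord v) (l : Fin (n + 1)) (J : Lab g) :
    ∃ d, HasDerivAt (fun t => EJ L P (bs g x σ (ln v l t)) J) d 0 ∧
      |d| ≤ P.gam * (lam L P.R' g x l * P.kb (v l - σ)) := by
  have hγ : 0 ≤ P.gam := by linarith [h.gam_ge]
  refine ⟨_, (hasDerivAt_ln_re l (differentiableAt_bs g x σ v h.cdf_kk.adm
    (F := fun _ y => (fJ L P J y : ℂ)) fun _ => differentiableAt_const _)).const_mul P.gam, ?_⟩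
  rw [abs_mul, abs_of_nonneg hγ]
  refine mul_le_mul_of_nonneg_left ((abs_re_le_norm _).trans ((norm_pd_bs hσ hv h.cdf_kk _ l
    (C := lam L P.R' g x l) fun m => ?_).trans ?_)) hγ
  · rw [← ofReal_sub, norm_real]
    exact (abs_fJ_sub_le L P _ _ _).trans (dT_pv_le_lam L _ x l m)
  · exact mul_le_mul_of_nonneg_left (h.dk_kk_le _) (zero_le_one.trans (one_le_lam L _ x l))

theorem der_zeta (h : Valid L P) (hσ : σ ∈ Set.Icc (0 : ℝ) 1) (hv : Ord v) (l : Fin (n + 1)) (J : Lab g) :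
    ∃ d, HasDerivAt (fun t => bs g x σ (ln v l t) P.kk (zeta L P J)) d 0 ∧
      ‖d‖ ≤ 2 * (lam L P.R' g x l * P.kb (v l - σ)) := by
  refine ⟨_, hasDerivAt_ln l (differentiableAt_bs g x σ v h.cdf_kk.adm
    (F := fun _ => zeta L P J) fun _ => differentiableAt_const _), ?_⟩
  refine (norm_pd_bs hσ hv h.cdf_kk _ l (C := 2) fun m => ?_).trans ?_
  · refine (norm_sub_le _ _).trans ?_
    rw [h.norm_zeta, h.norm_zeta]
    norm_num
  · exact mul_le_mul_of_nonneg_left ((h.dk_kk_le _).trans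
      (le_mul_of_one_le_left (h.kb_nonneg _) (one_le_lam L _ x l))) zero_le_two

theorem der_cutf (a : ℝ) {r : ℝ → ℝ} {r' c μ : ℝ} (hr : HasDerivAt r r' 0) (hc : 1 ≤ c) (hμ : |r'| ≤ μ) :
    ∃ d, HasDerivAt (fun t => cutf a (r t / c)) d 0 ∧ |d| ≤ Th * μ ∧ ((a + 1) * c ≤ r 0 → d = 0) := by
  have hc0 : 0 < c := by linarith
  have h1 : HasDerivAt (cutf a) (deriv (cutf a) (r 0 / c)) (r 0 / c) :=
    ((contDiff_cutf a).differentiable (by simp) _).hasDerivAt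
  refine ⟨_, h1.comp (h := fun t => r t / c) 0 (hr.div_const c), ?_, fun h => ?_⟩
  · rw [abs_mul, abs_div, abs_of_pos hc0]
    exact mul_le_mul (abs_deriv_cutf_le _ _) ((div_le_self (abs_nonneg _) hc).trans hμ) (by positivity)
      (zero_le_one.trans one_le_Th)
  · rw [deriv_cutf_eq_zero ((le_div_iff₀ hc0).2 h), zero_mul]

theorem cut_eq_zero (h : Valid L P) {β : Pth G} (hβ : 2 * P.r1 ≤ rr L P β ∨ 2 * P.rho ≤ ro L P β) :
    cut L P β = 0 := by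
  have h1 : (0 : ℝ) < P.r1 := by exact_mod_cast h.r1_pos
  have h2 : (0 : ℝ) < P.rho := by exact_mod_cast h.rho_pos
  rcases hβ with hβ | hβ
  · rw [cut, cutf_eq_zero ((le_div_iff₀ h1).2 (by linarith)), zero_mul]
  · rw [cut, cutf_eq_zero (s := ro L P β / _) ((le_div_iff₀ h2).2 (by linarith)), mul_zero]

theorem cut_mem (β : Pth G) : 0 ≤ cut L P β ∧ cut L P β ≤ 1 :=
  ⟨mul_nonneg (cutf_nonneg _ _) (cutf_nonneg _ _), mul_le_one₀ (cutf_le_one _ _) (cutf_nonneg _ _) (cutf_le_one _ _)⟩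

theorem der_cut (h : Valid L P) (hσ : σ ∈ Set.Icc (0 : ℝ) 1) (hv : Ord v) (l : Fin (n + 1)) :
    ∃ d, HasDerivAt (fun t => cut L P (bs g x σ (ln v l t))) d 0 ∧
      |d| ≤ 3 * Th * (lam L P.R' g x l * P.kb (v l - σ)) ∧
      (2 * P.r1 ≤ rr L P (bs g x σ v) ∨ 2 * P.rho ≤ ro L P (bs g x σ v) → d = 0) := by
  have h1 : (1 : ℝ) ≤ P.r1 := by exact_mod_cast h.r1_pos
  have h2 : (1 : ℝ) ≤ P.rho := by exact_mod_cast h.rho_pos
  obtain ⟨r', a1, a2⟩ := der_rr (g := g) (x := x) h hσ hv l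
  obtain ⟨o', b1, b2⟩ := der_ro (g := g) (x := x) h hσ hv l
  obtain ⟨c, c1, c2, c3⟩ := der_cutf 1 a1 h1 a2
  obtain ⟨d, d1, d2, d3⟩ := der_cutf 1 b1 h2 b2
  refine ⟨_, c1.fun_mul d1, ?_, ?_⟩
  · refine (abs_add_le _ _).trans ?_
    rw [abs_mul, abs_mul, abs_of_nonneg (cutf_nonneg _ _), abs_of_nonneg (cutf_nonneg _ _)]
    have e1 := (mul_le_of_le_one_right (abs_nonneg c) (cutf_le_one 1 (ro L P (bs g x σ (ln v l 0)) / P.rho))).trans c2
    have e2 := (mul_le_of_le_one_left (abs_nonneg d) (cutf_le_one 1 (rr L P (bs g x σ (ln v l 0)) / P.r1))).trans d2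
    linarith
  · rw [ln_zero] at c3 d3 ⊢
    rintro (e | e)
    · rw [c3 (by linarith), cutf_eq_zero (s := rr L P _ / _) ((le_div_iff₀ (by linarith)).2 (by linarith))]
      ring
    · rw [d3 (by linarith), cutf_eq_zero (s := ro L P _ / _) ((le_div_iff₀ (by linarith)).2 (by linarith))]
      ring

theorem der_aE (h : Valid L P) (f : Fld P g) (z : Lab g × Fin 2) {E : ℝ → Lab g → ℝ} {E' μ : ℝ}
    (hE : HasDerivAt (fun t => E t z.1) E' 0) (hμ : |E'| ≤ μ) :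
    ∃ d, HasDerivAt (fun t => aE P f (E t) z) d 0 ∧ |d| ≤ 3 * Th * μ * vE P f (E 0) z ^ 2 ∧
      (4 * (P.gam * P.rho) ≤ E 0 z.1 → d = 0) := by
  have h1 : 1 ≤ P.gam * P.rho := one_le_mul_of_one_le_of_one_le h.gam_ge (by exact_mod_cast h.rho_pos)
  obtain ⟨c, c1, c2, c3⟩ := der_cutf 3 hE h1 hμ
  have hv : HasDerivAt (fun t => vE P f (E t) z) (-E' * vE P f (E 0) z) 0 := by
    unfold vE
    cases f z.1 z.2 with
    | none => simpa using hasDerivAt_const (0 : ℝ) (0 : ℝ)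
    | some s =>
      refine ((hE.fun_neg.exp).const_mul (lev P s)).congr_deriv ?_
      simp only [Option.elim_some]
      ring
  have hμ0 : 0 ≤ μ := (abs_nonneg _).trans hμ
  refine ⟨(c - 2 * cutf 3 (E 0 z.1 / (P.gam * P.rho)) * E') * vE P f (E 0) z ^ 2,
    (c1.fun_mul (hv.fun_pow 2)).congr_deriv (by simp only [Nat.cast_ofNat, Nat.add_one_sub_one, pow_one]; ring),
    ?_, fun e => ?_⟩
  · rw [abs_mul, abs_of_nonneg (sq_nonneg (vE P f (E 0) z))]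
    refine mul_le_mul_of_nonneg_right ((abs_sub _ _).trans ?_) (sq_nonneg _)
    rw [mul_assoc, abs_mul, abs_mul, abs_of_nonneg (cutf_nonneg _ _), abs_two]
    have e1 := (mul_le_of_le_one_left (abs_nonneg E') (cutf_le_one 3 (E 0 z.1 / (P.gam * P.rho)))).trans hμ
    have e2 := le_mul_of_one_le_left hμ0 one_le_Th
    linarith
  · rw [c3 (by linarith), cutf_eq_zero ((le_div_iff₀ (by linarith)).2 (by linarith))]
    ring

theorem der_sqrt {Z : Type} (S : Finset Z) {A : Z → ℝ → ℝ} {A' : Z → ℝ} (hA : ∀ z, HasDerivAt (A z) (A' z) 0)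
    {ε : ℝ} (hε : 0 < ε) :
    ∃ d, HasDerivAt (fun t => √(∑ z ∈ S, A z t ^ 2 + ε)) d 0 ∧ |d| ≤ √(∑ z ∈ S, A' z ^ 2) := by
  have h0 : 0 < ∑ z ∈ S, A z 0 ^ 2 + ε := add_pos_of_nonneg_of_pos (sum_nonneg fun _ _ => sq_nonneg _) hε
  refine ⟨_, ((HasDerivAt.fun_sum fun z (_ : z ∈ S) => (hA z).fun_pow 2).add_const ε).sqrt h0.ne', ?_⟩
  have h1 := Real.sqrt_pos.2 h0
  simp only [Nat.cast_ofNat, Nat.add_one_sub_one, pow_one, mul_assoc, ← mul_sum]
  rw [mul_div_mul_left _ _ two_ne_zero, abs_div, abs_of_pos h1, div_le_iff₀ h1, ← Real.sqrt_mul (by positivity)]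
  refine Real.abs_le_sqrt ((sum_mul_sq_le_sq_mul_sq _ _ _).trans ?_)
  rw [mul_comm]
  exact mul_le_mul_of_nonneg_left (by linarith) (by positivity)

end Crest.Agent.R192.HG
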