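import Crest.Agent.R192.HG.Der

/-! R192, block HG: pointwise estimates for the sections on good fields. -/

set_option autoImplicit false

open Complex Finset

noncomputable section

namespace Crest.Agent.R192

namespace HG

variable {G : Type} [Group G] {L : Len G} {P : Par} {g : G} {n : ℕ} {x : Fin (n + 1) → G}
  {v : Fin (n + 1) → ℝ} {σ : ℝ}

/-- the majorant -/
def mj (L : Len G) (P : Par) (g : G) (f : Fld P g) (β : Pth G) (c : G) (z : Lab g × Fin 2) : ℝ :=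
  if z ∈ UU L P g c ×ˢ (univ : Finset (Fin 2)) then vE P f (EJ L P β) z ^ 2 / nrm L P f β else 0

theorem mj_nonneg (f : Fld P g) (β : Pth G) (c : G) (z : Lab g × Fin 2) : 0 ≤ mj L P g f β c z := by
  unfold mj
  split_ifs
  · exact div_nonneg (sq_nonneg _) (Real.sqrt_nonneg _)
  · exact le_rfl

theorem nrm_pos (h : Valid L P) (f : Fld P g) : 0 < nrm L P f (bs g x σ v) := by
  rw [nrm_eq h]
  positivity

theorem Slow.aE_out (_ : Valid L P) {f : Fld P g} {β : Pth G} {c : G} (hs : Slow L P g f x β c)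
    {z : Lab g × Fin 2} (hz : z ∉ UU L P g c ×ˢ (univ : Finset (Fin 2))) : 4 * (P.gam * P.rho) ≤ EJ L P β z.1 :=
  hs.out _ fun h' => hz (mem_product.2 ⟨h', mem_univ _⟩)

theorem Slow.le_mj (h : Valid L P) {f : Fld P g} {β : Pth G} {c : G} (hs : Slow L P g f x β c)
    (z : Lab g × Fin 2) : aE P f (EJ L P β) z / nrm L P f β ≤ mj L P g f β c z := by
  unfold mj
  split_ifs with hz
  · exact div_le_div_of_nonneg_right (aE_le _ _ _) (Real.sqrt_nonneg _)
  · rw [aE_eq_zero h f (hs.aE_out h hz), zero_div]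

theorem Slow.le_nrm (h : Valid L P) {f : Fld P g} {c : G} (hs : Slow L P g f x (bs g x σ v) c) :
    √(∑ z ∈ UU L P g c ×ˢ univ, aE P f (EJ L P (bs g x σ v)) z ^ 2) ≤ nrm L P f (bs g x σ v) := by
  rw [nrm_eq h, hs.sum_eq h]
  exact Real.sqrt_le_sqrt (le_add_of_nonneg_right (Real.exp_pos _).le)

theorem Slow.sum_mj (h : Valid L P) {f : Fld P g} {c : G} (hs : Slow L P g f x (bs g x σ v) c) :
    ∑ z ∈ FF L P g x, mj L P g f (bs g x σ v) c z ≤ P.HH := by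
  simp only [mj]
  rw [sum_ite_mem, inter_eq_right.2 hs.sub, ← sum_div, div_le_iff₀ (nrm_pos h f)]
  exact hs.two.trans (mul_le_mul_of_nonneg_left (hs.le_nrm h) (by unfold Par.HH; positivity))

theorem der_quot (h : Valid L P) (f : Fld P g) (hσ : σ ∈ Set.Icc (0 : ℝ) 1) (hv : Ord v) (l : Fin (n + 1))
    (z : Lab g × Fin 2) :
    ∃ d, HasDerivAt (fun t => aE P f (EJ L P (bs g x σ (ln v l t))) z / nrm L P f (bs g x σ (ln v l t))) d 0 ∧
      ∀ c, Slow L P g f x (bs g x σ v) c →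
        |d| ≤ 8 * Th * (P.gam * (lam L P.R' g x l * P.kb (v l - σ))) * mj L P g f (bs g x σ v) c z := by
  choose E' e1 e2 using der_EJ (g := g) (x := x) h hσ hv l
  choose A' a1 a2 a3 using fun z : Lab g × Fin 2 =>
    der_aE h f z (E := fun t => EJ L P (bs g x σ (ln v l t))) (e1 z.1) (e2 z.1)
  obtain ⟨N', n1, n2⟩ := der_sqrt (FF L P g x) a1 (Real.exp_pos (-(8 * P.gam * P.rho)))
  simp only [← nrm_eq h] at n1
  have hN := nrm_pos (g := g) (x := x) (σ := σ) (v := v) h f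
  refine ⟨_, (a1 z).fun_div n1 (by rw [ln_zero]; exact hN.ne'), fun c hs => ?_⟩
  simp only [ln_zero] at a2 a3 ⊢
  obtain ⟨μ, hμ⟩ : ∃ μ, μ = Th * (P.gam * (lam L P.R' g x l * P.kb (v l - σ))) := ⟨_, rfl⟩
  have hμ0 : 0 ≤ μ := hμ ▸ mul_nonneg (zero_le_one.trans one_le_Th) ((abs_nonneg _).trans (e2 z.1))
  simp only [mul_assoc _ Th, ← hμ] at a2 ⊢
  unfold mj
  split_ifs with hz
  swap
  · rw [a3 z (hs.aE_out h hz), aE_eq_zero h f (hs.aE_out h hz)]
    simp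
  have b1 : |N'| ≤ 5 * μ * nrm L P f (bs g x σ v) := by
    refine n2.trans (le_trans ?_ (mul_le_mul_of_nonneg_left (hs.le_nrm h) (by positivity)))
    rw [← sum_subset hs.sub fun z _ hz => by rw [a3 z (hs.aE_out h hz), zero_pow two_ne_zero],
      ← Real.sqrt_sq (show 0 ≤ 5 * μ by positivity), ← Real.sqrt_mul (sq_nonneg _)]
    refine Real.sqrt_le_sqrt ?_
    have b2 : ∑ z ∈ UU L P g c ×ˢ univ, A' z ^ 2 ≤
        ∑ z ∈ UU L P g c ×ˢ univ, 9 * μ ^ 2 * vE P f (EJ L P (bs g x σ v)) z ^ 4 := sum_le_sum fun z _ => by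
      rw [← sq_abs]
      refine (pow_le_pow_left₀ (abs_nonneg _) (a2 z) 2).trans_eq ?_
      ring
    rw [← mul_sum] at b2
    have b3 := mul_le_mul_of_nonneg_left hs.four (show 0 ≤ 9 * μ ^ 2 by positivity)
    have b4 : 0 ≤ μ ^ 2 * ∑ z ∈ UU L P g c ×ˢ univ, aE P f (EJ L P (bs g x σ v)) z ^ 2 := by positivity
    linarith
  rw [abs_div, abs_of_pos (pow_pos hN 2), div_le_iff₀ (pow_pos hN 2)]
  refine (abs_sub _ _).trans ?_
  rw [abs_mul, abs_mul, abs_of_pos hN, abs_of_nonneg (aE_nonneg _ _ _)]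
  have c1 := mul_le_mul_of_nonneg_right (a2 z) hN.le
  have c2 := mul_le_mul (aE_le f (EJ L P (bs g x σ v)) z) b1 (abs_nonneg _) (sq_nonneg _)
  refine (add_le_add c1 c2).trans_eq ?_
  field_simp
  ring

theorem norm_ss (h : Valid L P) (o : Omg P g) (z : Lab g × Fin 2) (β : Pth G) : ‖ss L P o z β‖ =
    cut L P β * (aE P o.1 (EJ L P β) z / nrm L P o.1 β) * ‖β P.kk (zeta L P z.1)‖ := by
  rw [ss, norm_mul, norm_mul, h.norm_off, mul_one, norm_real, Real.norm_of_nonneg]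
  exact mul_nonneg (cut_mem β).1 (div_nonneg (aE_nonneg _ _ _) (Real.sqrt_nonneg _))

theorem ds_bound (hS : StHS) (h : Valid L P) (hg : Hyp L P g) (o : Omg P g) (hσ : σ ∈ Set.Icc (0 : ℝ) 1)
    (hv : Ord v) (z : Lab g × Fin 2) (l : Fin (n + 1)) :
    (2 * P.r1 ≤ rr L P (bs g x σ v) ∨ 2 * P.rho ≤ ro L P (bs g x σ v) → ds L P o z x v σ l = 0) ∧
    ∀ c, Slow L P g o.1 x (bs g x σ v) c → ‖ds L P o z x v σ l‖ ≤
      P.Gam * lam L P.R' g x l * P.kb (v l - σ) * mj L P g o.1 (bs g x σ v) c z := by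
  have hd : DifferentiableAt ℝ (fun w => ss L P o z (bs g x σ w)) v :=
    ((((hS G L P g h hg).2.1 o z n x).differentiable (by simp)) (σ, v)).comp v
      (f := fun w => (σ, w)) (by fun_prop)
  obtain ⟨c', c1, c2, c3⟩ := der_cut (g := g) (x := x) h hσ hv l
  obtain ⟨D, d1, d2⟩ := der_quot (x := x) h o.1 hσ hv l z
  obtain ⟨B', b1, b2⟩ := der_zeta (x := x) h hσ hv l z.1
  have e := (hasDerivAt_ln l hd).unique (((c1.fun_mul d1).ofReal_comp.fun_mul b1).mul_const (off L P o z.1))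
  simp only [ln_zero] at e
  rw [ds, e]
  refine ⟨fun hβ => by simp [c3 hβ, cut_eq_zero h hβ], fun c hs => ?_⟩
  obtain ⟨μ, hμ⟩ : ∃ μ, μ = lam L P.R' g x l * P.kb (v l - σ) := ⟨_, rfl⟩
  have hμ0 : 0 ≤ μ := hμ ▸ mul_nonneg (zero_le_one.trans (one_le_lam L _ x l)) (h.kb_nonneg _)
  have d3 := d2 c hs
  rw [mul_assoc P.Gam, Par.Gam]
  rw [← hμ] at c2 b2 d3 ⊢
  have q0 : 0 ≤ aE P o.1 (EJ L P (bs g x σ v)) z / nrm L P o.1 (bs g x σ v) :=
    div_nonneg (aE_nonneg _ _ _) (Real.sqrt_nonneg _)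
  have q1 := hs.le_mj h z
  have m0 := mj_nonneg (L := L) o.1 (bs g x σ v) c z
  obtain ⟨k0, k1⟩ := cut_mem (L := L) (P := P) (bs g x σ v)
  have hB := norm_bs_le' (g := g) (x := x) hσ hv h.cdf_kk fun y => (h.norm_zeta z.1 y).le
  generalize aE P o.1 (EJ L P (bs g x σ v)) z / nrm L P o.1 (bs g x σ v) = Q at *
  generalize mj L P g o.1 (bs g x σ v) c z = a at *
  generalize cut L P (bs g x σ v) = k at *
  rw [norm_mul, h.norm_off, mul_one]
  refine (norm_add_le _ _).trans ?_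
  rw [norm_mul, norm_mul, norm_real, norm_real, Real.norm_of_nonneg (mul_nonneg k0 q0), Real.norm_eq_abs]
  have t1 : |c' * Q + k * D| ≤ 3 * Th * μ * a + 8 * Th * (P.gam * μ) * a := by
    refine (abs_add_le _ _).trans (add_le_add ?_ ?_)
    · rw [abs_mul, abs_of_nonneg q0]
      exact mul_le_mul c2 q1 q0 ((abs_nonneg _).trans c2)
    · rw [abs_mul, abs_of_nonneg k0]
      exact (mul_le_of_le_one_left (abs_nonneg _) k1).trans d3
  have t2 := (mul_le_of_le_one_right (abs_nonneg _) hB).trans t1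
  have t3 : k * Q * ‖B'‖ ≤ a * (2 * μ) :=
    mul_le_mul ((mul_le_of_le_one_left q0 k1).trans q1) b2 (norm_nonneg _) m0
  have t4 : 0 ≤ μ * a := mul_nonneg hμ0 m0
  have t5 : μ * a ≤ Th * (μ * a) := le_mul_of_one_le_left t4 one_le_Th
  have t6 : Th * (μ * a) ≤ P.gam * (Th * (μ * a)) := le_mul_of_one_le_left (t4.trans t5) h.gam_ge
  linarith

theorem Slow.lower (h : Valid L P) (o : Omg P g) {c : G} (hs : Slow L P g o.1 x (bs g x σ v) c)
    (hc : cut L P (bs g x σ v) = 1) : 1 / 8 ≤ ∑ z ∈ FF L P g x, ‖ss L P o z (bs g x σ v)‖ ^ 2 := by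
  refine le_trans ?_ (sum_le_sum_of_subset_of_nonneg hs.sub fun _ _ _ => sq_nonneg _)
  have hN := nrm_pos (g := g) (x := x) (σ := σ) (v := v) h o.1
  have a1 : nrm L P o.1 (bs g x σ v) ^ 2 ≤ 2 * ∑ z ∈ UU L P g c ×ˢ univ, aE P o.1 (EJ L P (bs g x σ v)) z ^ 2 := by
    rw [nrm_eq h, Real.sq_sqrt (by positivity), hs.sum_eq h]
    linarith [hs.low]
  have a2 : ∑ z ∈ UU L P g c ×ˢ univ, aE P o.1 (EJ L P (bs g x σ v)) z ^ 2 / nrm L P o.1 (bs g x σ v) ^ 2 * (1 / 4) ≤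
      ∑ z ∈ UU L P g c ×ˢ univ, ‖ss L P o z (bs g x σ v)‖ ^ 2 := sum_le_sum fun z hz => by
    rw [norm_ss h, hc, one_mul, mul_pow, div_pow]
    refine mul_le_mul_of_nonneg_left ?_ (by positivity)
    have := hs.coh _ (mem_product.1 hz).1
    nlinarith
  refine le_trans ?_ a2
  rw [← sum_mul, ← sum_div, div_mul_eq_mul_div, le_div_iff₀ (pow_pos hN 2)]
  linarith

theorem Slow.active (h : Valid L P) (o : Omg P g) {β : Pth G} {c : G} (hs : Slow L P g o.1 x β c)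
    {z : Lab g × Fin 2} (hz : ss L P o z β ≠ 0) : z.1 ∈ UU L P g c ∧ o.1 z.1 z.2 ≠ none := by
  have h1 : aE P o.1 (EJ L P β) z ≠ 0 := fun e => hz (by simp [ss, e])
  refine ⟨by_contra fun h' => h1 (aE_eq_zero h _ (hs.out _ h')), fun e => h1 ?_⟩
  simp [aE, vE, e]

end HG

open HG in
theorem stHG (hJ : StJ) (hS : StHS) : StHG := by
  intro G _ L P g h hg o hf n x v hv σ hσ
  have h1 : (0 : ℝ) < P.r1 := by exact_mod_cast h.r1_pos
  have h2 : (0 : ℝ) < P.rho := by exact_mod_cast h.rho_pos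
  have r0 := rr_nonneg (g := g) (x := x) h hσ hv
  have o0 := ro_nonneg (g := g) (x := x) h hσ hv
  have s0 : 0 ≤ ∑ z ∈ FF L P g x, ‖ss L P o z (bs g x σ v)‖ ^ 2 := sum_nonneg fun _ _ => sq_nonneg _
  have big : P.r1 < rr L P (bs g x σ v) ∨ P.rho < ro L P (bs g x σ v) →
      1 / 8 ≤ rr L P (bs g x σ v) / (2 * P.r1) + ro L P (bs g x σ v) / (2 * P.rho) +
        ∑ z ∈ FF L P g x, ‖ss L P o z (bs g x σ v)‖ ^ 2 := by
    have r1 : 0 ≤ rr L P (bs g x σ v) / (2 * P.r1) := by positivity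
    have o1 : 0 ≤ ro L P (bs g x σ v) / (2 * P.rho) := by positivity
    rintro (e | e)
    · have : 1 / 8 ≤ rr L P (bs g x σ v) / (2 * P.r1) := by rw [le_div_iff₀ (by positivity)]; linarith
      linarith
    · have : 1 / 8 ≤ ro L P (bs g x σ v) / (2 * P.rho) := by rw [le_div_iff₀ (by positivity)]; linarith
      linarith
  by_cases hβ : 2 * P.r1 ≤ rr L P (bs g x σ v) ∨ 2 * P.rho ≤ ro L P (bs g x σ v)
  · have hz : ∀ z, ss L P o z (bs g x σ v) = 0 := fun z => by simp [ss, cut_eq_zero h hβ]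
    refine ⟨⟨fun _ => 0, fun _ => le_rfl, ?_, fun z => ⟨by simp [hz], fun l => ?_⟩⟩,
      big (hβ.imp (fun e => by linarith) fun e => by linarith), fun z z' _ e => absurd (hz z) e⟩
    · rw [sum_const_zero, Par.HH]
      positivity
    · simp [(ds_bound hS h hg o hσ hv z l).1 hβ]
  push Not at hβ
  obtain ⟨c, hs⟩ := exists_slow hJ h hg hf hσ hv hβ.1 hβ.2
  refine ⟨⟨_, mj_nonneg o.1 (bs g x σ v) c, hs.sum_mj h, fun z =>
    ⟨?_, fun l => (ds_bound hS h hg o hσ hv z l).2 c hs⟩⟩, ?_, fun z z' e hz hz' => ?_⟩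
  · have q0 : 0 ≤ aE P o.1 (EJ L P (bs g x σ v)) z / nrm L P o.1 (bs g x σ v) :=
      div_nonneg (aE_nonneg _ _ _) (Real.sqrt_nonneg _)
    rw [norm_ss h]
    exact (mul_le_of_le_one_right (mul_nonneg (cut_mem _).1 q0)
      (norm_bs_le' hσ hv h.cdf_kk fun y => (h.norm_zeta z.1 y).le)).trans
      ((mul_le_of_le_one_left q0 (cut_mem _).2).trans (hs.le_mj h z))
  · by_cases hb : P.r1 < rr L P (bs g x σ v) ∨ P.rho < ro L P (bs g x σ v)
    · exact big hb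
    push Not at hb
    have := hs.lower h o (by
      rw [cut, cutf_eq_one ((div_le_one h1).2 hb.1), cutf_eq_one ((div_le_one h2).2 hb.2), one_mul])
    exact this.trans (le_add_of_nonneg_left (by positivity))
  · obtain ⟨u1, n1⟩ := hs.active h o hz
    obtain ⟨u2, n2⟩ := hs.active h o hz'
    simp only [ch, Prod.mk.injEq] at e
    obtain ⟨-, e2, e3⟩ := e
    obtain ⟨η, hη, hη'⟩ := (hf c).1 z.2
    rw [← e2] at n2 e3
    rw [(hη' _ u1).resolve_left n1, (hη' _ u2).resolve_left n2] at e3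
    exact Prod.ext (hη.2 u1 u2 (Option.some.inj e3)) e2

end Crest.Agent.R192
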