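import Crest.Agent.R192.Iface
import Crest.Agent.R192.Br
import Crest.Agent.R192.Ker
import Crest.Agent.R192.Lab

/-! R192, block HG: finite representation of the functionals and the structure of slow pieces of path. -/

set_option autoImplicit false

open Complex Finset

noncomputable section

namespace Crest.Agent.R192.HG

variable {G : Type} [Group G] {L : Len G} {P : Par} {g : G} {n : ℕ} {x : Fin (n + 1) → G}
  {v : Fin (n + 1) → ℝ} {σ : ℝ}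

theorem AA_eq (R : ℕ) (hσ : σ ∈ Set.Icc (0 : ℝ) 1) (hv : Ord v) {κ κ' : ℝ → ℝ} (hκ : Adm κ) (hκ' : Adm κ') :
    AA L R κ κ' (bs g x σ v) = ∑ i, ∑ i', wt κ σ v i * wt κ' σ v i' * dT L R (pt g x i) (pt g x i') := by
  rw [AA, bs_eq_sum g x hσ hv hκ, re_sum]
  refine sum_congr rfl fun i _ => ?_
  rw [bs_eq_sum g x hσ hv hκ', sum_mul, re_sum]
  refine sum_congr rfl fun i' _ => ?_
  rw [← ofReal_mul, ← ofReal_mul, ofReal_re]
  ring

theorem AA_nonneg (R : ℕ) (hσ : σ ∈ Set.Icc (0 : ℝ) 1) (hv : Ord v) {κ κ' : ℝ → ℝ} {w w' : ℝ} (hκ : Cdf κ w)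
    (hκ' : Cdf κ' w') : 0 ≤ AA L R κ κ' (bs g x σ v) := by
  rw [AA_eq R hσ hv hκ.adm hκ'.adm]
  exact sum_nonneg fun i _ => sum_nonneg fun i' _ =>
    mul_nonneg (mul_nonneg (wt_nonneg hκ σ hv i) (wt_nonneg hκ' σ hv i')) (dT_nonneg L R _ _)

theorem rr_nonneg (h : Valid L P) (hσ : σ ∈ Set.Icc (0 : ℝ) 1) (hv : Ord v) : 0 ≤ rr L P (bs g x σ v) :=
  div_nonneg (sum_nonneg fun _ hb => AA_nonneg _ hσ hv (h.cdf_k1 (mem_range.1 hb).le) (h.cdf_k1 (mem_range.1 hb)))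
    (Nat.cast_nonneg _)

theorem ro_nonneg (h : Valid L P) (hσ : σ ∈ Set.Icc (0 : ℝ) 1) (hv : Ord v) : 0 ≤ ro L P (bs g x σ v) :=
  AA_nonneg _ hσ hv h.cdf_kk h.cdf_kk

theorem EJ_eq (h : Valid L P) (hσ : σ ∈ Set.Icc (0 : ℝ) 1) (hv : Ord v) (J : Lab g) :
    EJ L P (bs g x σ v) J = P.gam * ∑ i, wt P.kk σ v i * fJ L P J (pt g x i) := by
  rw [EJ, bs_eq_sum g x hσ hv h.cdf_kk.adm, re_sum]
  congr 1
  refine sum_congr rfl fun i _ => ?_
  rw [← ofReal_mul, ofReal_re, mul_comm]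

theorem gr_pos (h : Valid L P) : 0 < P.gam * P.rho :=
  mul_pos (by linarith [h.gam_ge]) (by exact_mod_cast h.rho_pos)

theorem aE_eq_zero (h : Valid L P) (f : Fld P g) {E : Lab g → ℝ} {z : Lab g × Fin 2}
    (hz : 4 * (P.gam * P.rho) ≤ E z.1) : aE P f E z = 0 := by
  rw [aE, cutf_eq_zero, zero_mul]
  rw [le_div_iff₀ (gr_pos h)]
  linarith

theorem aE_nonneg (f : Fld P g) (E : Lab g → ℝ) (z : Lab g × Fin 2) : 0 ≤ aE P f E z :=
  mul_nonneg (cutf_nonneg _ _) (sq_nonneg _)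

theorem aE_le (f : Fld P g) (E : Lab g → ℝ) (z : Lab g × Fin 2) : aE P f E z ≤ vE P f E z ^ 2 :=
  mul_le_of_le_one_left (sq_nonneg _) (cutf_le_one _ _)

theorem aE_off (h : Valid L P) (f : Fld P g) {z : Lab g × Fin 2} (hz : z ∉ FF L P g x) (σ : ℝ)
    (w : Fin (n + 1) → ℝ) : aE P f (EJ L P (bs g x σ w)) z = 0 := by
  refine aE_eq_zero h f ?_
  rw [mem_FF] at hz
  push Not at hz
  rw [EJ, bs_congr g x σ w P.kk (F' := fun _ => ((P.R : ℝ) : ℂ)) fun m i => by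
    rw [fJ_zpow, fJ, min_eq_right (hz i)], bs_const g x σ w h.cdf_kk, ofReal_re, Par.R]
  push_cast
  linarith [gr_pos h]

theorem nrm_eq (h : Valid L P) (f : Fld P g) (σ : ℝ) (w : Fin (n + 1) → ℝ) :
    nrm L P f (bs g x σ w) = √(∑ z ∈ FF L P g x, aE P f (EJ L P (bs g x σ w)) z ^ 2 +
      Real.exp (-(8 * P.gam * P.rho))) := by
  rw [nrm, tsum_eq_sum fun z hz => by rw [aE_off h f hz, zero_pow two_ne_zero]]

theorem norm_bs_le (hσ : σ ∈ Set.Icc (0 : ℝ) 1) (hv : Ord v) {κ : ℝ → ℝ} {w : ℝ} (hκ : Cdf κ w) {F : G → ℂ}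
    {B : G → ℝ} (hF : ∀ y, ‖F y‖ ≤ B y) : ‖bs g x σ v κ F‖ ≤ ∑ i, wt κ σ v i * B (pt g x i) := by
  rw [bs_eq_sum g x hσ hv hκ.adm]
  refine (norm_sum_le _ _).trans (sum_le_sum fun i _ => ?_)
  rw [norm_mul, norm_real, Real.norm_of_nonneg (wt_nonneg hκ σ hv i), mul_comm]
  exact mul_le_mul_of_nonneg_left (hF _) (wt_nonneg hκ σ hv i)

theorem norm_bs_le' (hσ : σ ∈ Set.Icc (0 : ℝ) 1) (hv : Ord v) {κ : ℝ → ℝ} {w : ℝ} (hκ : Cdf κ w) {F : G → ℂ}
    {B : ℝ} (hF : ∀ y, ‖F y‖ ≤ B) : ‖bs g x σ v κ F‖ ≤ B := by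
  refine (norm_bs_le hσ hv hκ (B := fun _ => B) hF).trans ?_
  rw [← sum_mul, sum_wt hκ hσ hv, one_mul]

theorem bs_sub (σ : ℝ) (v : Fin (n + 1) → ℝ) {κ : ℝ → ℝ} (hκ : Adm κ) (F F' : G → ℂ) :
    bs g x σ v κ F - bs g x σ v κ F' = bs g x σ v κ fun y => F y - F' y := by
  rw [sub_eq_iff_eq_add, ← bs_add g x σ v hκ]
  simp only [sub_add_cancel]

/-- the path `β` is concentrated near `c` -/
structure Slow (L : Len G) (P : Par) (g : G) (f : Fld P g) (x : Fin (n + 1) → G) (β : Pth G) (c : G) : Prop where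
  sub : UU L P g c ×ˢ univ ⊆ FF L P g x
  out : ∀ J ∉ UU L P g c, 4 * (P.gam * P.rho) ≤ EJ L P β J
  low : Real.exp (-(8 * P.gam * P.rho)) ≤ ∑ z ∈ UU L P g c ×ˢ univ, aE P f (EJ L P β) z ^ 2
  two : ∑ z ∈ UU L P g c ×ˢ univ, vE P f (EJ L P β) z ^ 2 ≤
    P.HH * √(∑ z ∈ UU L P g c ×ˢ univ, aE P f (EJ L P β) z ^ 2)
  four : ∑ z ∈ UU L P g c ×ˢ univ, vE P f (EJ L P β) z ^ 4 ≤
    2 * ∑ z ∈ UU L P g c ×ˢ univ, aE P f (EJ L P β) z ^ 2
  coh : ∀ J ∈ UU L P g c, 5 / 8 ≤ ‖β P.kk (zeta L P J)‖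

theorem exists_slow (hJ : StJ) (h : Valid L P) (hg : Hyp L P g) {f : Fld P g} (hf : FGood L P f)
    (hσ : σ ∈ Set.Icc (0 : ℝ) 1) (hv : Ord v) (h1 : rr L P (bs g x σ v) < 2 * P.r1)
    (h2 : ro L P (bs g x σ v) < 2 * P.rho) : ∃ c, Slow L P g f x (bs g x σ v) c := by
  have hq : (0 : ℝ) < P.q := by exact_mod_cast h.q_pos
  have hρ : (0 : ℝ) < P.rho := by exact_mod_cast h.rho_pos
  have hγ : 0 < P.gam := by linarith [h.gam_ge]
  have w0 := wt_nonneg h.cdf_kk σ hv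
  have w1 := sum_wt h.cdf_kk hσ hv
  obtain ⟨i₀, hi₀⟩ : ∃ i₀, ∑ i, wt P.kk σ v i * dT L P.R' (pt g x i₀) (pt g x i) ≤ 2 * P.rho := by
    by_contra hc
    push Not at hc
    rw [ro, AA_eq _ hσ hv h.cdf_kk.adm h.cdf_kk.adm] at h2
    refine absurd h2 (not_lt.2 ?_)
    calc (2 * P.rho : ℝ) = ∑ i, wt P.kk σ v i * (2 * P.rho) := by rw [← sum_mul, w1, one_mul]
      _ ≤ _ := sum_le_sum fun i _ => by
          simp only [mul_assoc, ← mul_sum]
          exact mul_le_mul_of_nonneg_left (hc i).le (w0 i)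
  have avg : ∀ F : G → ℝ, ∑ i, wt P.kk σ v i * F (pt g x i) =
      (∑ b ∈ range P.q, ∑ i, wt (P.k1 b) σ v i * F (pt g x i)) / P.q := fun F => by
    rw [sum_comm, sum_div]
    refine sum_congr rfl fun i _ => ?_
    rw [h.wt_kk, ← sum_mul, div_mul_eq_mul_div]
  obtain ⟨j1, j2, j3⟩ := hJ G L P g h f hf _ (pt g x) (fun b => wt (P.k1 b) σ v)
    (fun b hb => ⟨wt_nonneg (h.cdf_k1 hb) σ hv, sum_wt (h.cdf_k1 hb) hσ hv⟩) (pt g x i₀) (by
      rw [rr, div_lt_iff₀ hq, sum_congr rfl fun b hb =>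
        AA_eq _ hσ hv (h.cdf_k1 (mem_range.1 hb).le).adm (h.cdf_k1 (mem_range.1 hb)).adm] at h1
      linarith) (by
      rw [avg (dT L P.R' (pt g x i₀)), div_le_iff₀ hq] at hi₀
      linarith) (EJ L P (bs g x σ v)) fun J => by rw [EJ_eq h hσ hv, avg (fJ L P J)]
  refine ⟨pt g x i₀, UU_pt_subset L P x i₀, fun J hU => ?_, j1, j2, j3, fun J hU => ?_⟩
  · rw [mem_UU, not_lt] at hU
    have a1 : (6 * P.rho : ℝ) ≤ fJ L P J (pt g x i₀) := by
      have : 6 * P.rho ≤ min (dJ L J (pt g x i₀)) P.R := le_min hU (by rw [Par.R]; omega)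
      rw [fJ]
      exact_mod_cast this
    have a2 : ∑ i, wt P.kk σ v i * (6 * P.rho - dT L P.R' (pt g x i₀) (pt g x i)) ≤
        ∑ i, wt P.kk σ v i * fJ L P J (pt g x i) := sum_le_sum fun i _ =>
      mul_le_mul_of_nonneg_left (by linarith [(abs_le.1 (abs_fJ_sub_le L P J (pt g x i₀) (pt g x i))).2]) (w0 i)
    simp only [mul_sub, sum_sub_distrib, ← sum_mul, w1] at a2
    rw [EJ_eq h hσ hv]
    nlinarith
  · have a1 := norm_bs_le (g := g) (x := x) hσ hv h.cdf_kk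
      (F := fun y => zeta L P J y - zeta L P J (pt g x i₀))
      (B := fun y => 1 / 8 + dT L P.R' (pt g x i₀) y / (8 * P.rho)) fun y => by
        by_cases hy : L.l ((pt g x i₀)⁻¹ * y) ≤ 16 * P.rho
        · exact (h.zeta_coh hg hU hy).trans
            (le_add_of_nonneg_right (div_nonneg (dT_nonneg L _ _ _) (by positivity)))
        · have b1 : 16 * P.rho ≤ min (L.l ((pt g x i₀)⁻¹ * y)) P.R' :=
            le_min (not_le.1 hy).le (by rw [Par.R', Par.Lam]; omega)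
          have b2 : (16 * P.rho : ℝ) ≤ dT L P.R' (pt g x i₀) y := by
            rw [dT]
            exact_mod_cast b1
          have b3 : 2 ≤ dT L P.R' (pt g x i₀) y / (8 * P.rho) := by
            rw [le_div_iff₀ (by positivity)]
            linarith
          have b4 := norm_sub_le (zeta L P J y) (zeta L P J (pt g x i₀))
          rw [h.norm_zeta, h.norm_zeta] at b4
          linarith
    rw [← bs_sub σ v h.cdf_kk.adm, bs_const g x σ v h.cdf_kk] at a1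
    simp only [mul_add, sum_add_distrib, ← sum_mul, w1, ← mul_div_assoc, ← sum_div] at a1
    have a2 : (∑ i, wt P.kk σ v i * dT L P.R' (pt g x i₀) (pt g x i)) / (8 * P.rho) ≤ 1 / 4 := by
      rw [div_le_iff₀ (by positivity)]
      linarith
    have a3 := norm_sub_norm_le (zeta L P J (pt g x i₀)) (bs g x σ v P.kk (zeta L P J))
    rw [h.norm_zeta, norm_sub_rev] at a3
    linarith

theorem Slow.sum_eq (h : Valid L P) {f : Fld P g} {β : Pth G} {c : G} (hs : Slow L P g f x β c) :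
    ∑ z ∈ FF L P g x, aE P f (EJ L P β) z ^ 2 = ∑ z ∈ UU L P g c ×ˢ univ, aE P f (EJ L P β) z ^ 2 :=
  (sum_subset hs.sub fun z _ hz => by
    rw [aE_eq_zero h f (hs.out _ fun h' => hz (mem_product.2 ⟨h', mem_univ _⟩)), zero_pow two_ne_zero]).symm

end Crest.Agent.R192.HG
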